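import Mathlib

/-!
Points of middle density: a measurable set which, together with its complement, charges an
interval, has a nested sequence of windows (each of half the length of the previous one) in which
the set has density exactly `q`, for any `q` in `(0, 1)`.
-/

open Filter Topology Set MeasureTheory Metric

namespace Vale.Agent.P097.H230

/-- primitive of the indicator of `E` -/
noncomputable def prim (E : Set ℝ) (x : ℝ) : ℝ := ∫ t in (0 : ℝ)..x, E.indicator (fun _ => (1 : ℝ)) t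

theorem intInd {E : Set ℝ} (hE : MeasurableSet E) (u v : ℝ) :
    IntervalIntegrable (E.indicator fun _ => (1 : ℝ)) volume u v := by
  rw [intervalIntegrable_iff]
  exact (integrableOn_const (by simp)).indicator hE

theorem continuous_prim {E : Set ℝ} (hE : MeasurableSet E) : Continuous (prim E) :=
  intervalIntegral.continuous_primitive (fun u v => intInd hE u v) 0

theorem prim_sub {E : Set ℝ} (hE : MeasurableSet E) {u v : ℝ} (huv : u ≤ v) :
    prim E v - prim E u = (volume (E ∩ Icc u v)).toReal := by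
  unfold prim
  rw [intervalIntegral.integral_interval_sub_left (intInd hE _ _) (intInd hE _ _),
    intervalIntegral.integral_of_le huv, integral_indicator hE, setIntegral_const]
  simp only [smul_eq_mul, mul_one, Measure.real]
  congr 1
  rw [Measure.restrict_apply hE]
  exact measure_congr ((ae_eq_refl _).inter Ioc_ae_eq_Icc)

theorem prim_ball {E : Set ℝ} (hE : MeasurableSet E) {x s : ℝ} (hs : 0 ≤ s) :
    prim E (x + s) - prim E (x - s) = (volume (E ∩ closedBall x s)).toReal := by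
  rw [prim_sub hE (by linarith), Real.closedBall_eq_Icc]

theorem prim_ball_compl {E : Set ℝ} (hE : MeasurableSet E) {x s : ℝ} (hs : 0 ≤ s) :
    (volume (closedBall x s \ E)).toReal = 2 * s - (prim E (x + s) - prim E (x - s)) := by
  rw [prim_ball hE hs]
  have h1 : volume (closedBall x s ∩ E) + volume (closedBall x s \ E) = volume (closedBall x s) :=
    measure_inter_add_sdiff _ hE
  have h2 : volume (closedBall x s ∩ E) ≠ ⊤ :=
    ((measure_mono inter_subset_left).trans_lt measure_closedBall_lt_top).ne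
  have h3 : volume (closedBall x s \ E) ≠ ⊤ :=
    ((measure_mono sdiff_subset).trans_lt measure_closedBall_lt_top).ne
  have h4 := congrArg ENNReal.toReal h1
  rw [ENNReal.toReal_add h2 h3, Real.volume_closedBall, ENNReal.toReal_ofReal (by linarith),
    inter_comm] at h4
  linarith

/-- halving a window of density `q` -/
theorem halve {E : Set ℝ} (hE : MeasurableSet E) {q x s : ℝ} (hs : 0 < s)
    (h : prim E (x + s) - prim E (x - s) = q * (2 * s)) :
    ∃ x', |x' - x| ≤ s / 2 ∧ prim E (x' + s / 2) - prim E (x' - s / 2) = q * (2 * (s / 2)) := by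
  have hc : Continuous fun x' => prim E (x' + s / 2) - prim E (x' - s / 2) :=
    ((continuous_prim hE).comp (continuous_id.add continuous_const)).sub
      ((continuous_prim hE).comp (continuous_id.sub continuous_const))
  set φ : ℝ → ℝ := fun x' => prim E (x' + s / 2) - prim E (x' - s / 2) with hφ
  have e1 : φ (x - s / 2) + φ (x + s / 2) = q * (2 * s) := by
    simp only [hφ]
    have a1 : x - s / 2 + s / 2 = x := by ring
    have a2 : x - s / 2 - s / 2 = x - s := by ring
    have a3 : x + s / 2 + s / 2 = x + s := by ring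
    have a4 : x + s / 2 - s / 2 = x := by ring
    rw [a1, a2, a3, a4]
    linarith
  have h3 : q * (2 * (s / 2)) ∈ uIcc (φ (x - s / 2)) (φ (x + s / 2)) := by
    rw [mem_uIcc]
    rcases le_total (φ (x - s / 2)) (q * (2 * (s / 2))) with h4 | h4
    · left; constructor <;> linarith
    · right; constructor <;> linarith
  obtain ⟨x', hx', hx''⟩ := intermediate_value_uIcc (hc.continuousOn) h3
  refine ⟨x', ?_, hx''⟩
  rw [uIcc_of_le (by linarith)] at hx'
  rw [abs_le]
  constructor <;> linarith [hx'.1, hx'.2]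

/-- a window of density exactly `q` -/
theorem exists_window {E : Set ℝ} (hE : MeasurableSet E) {q : ℝ} (q0 : 0 < q) (q1 : q < 1)
    {a b : ℝ} (h1 : 0 < volume (E ∩ Ioo a b)) (h2 : 0 < volume (Ioo a b \ E)) :
    ∃ x s, 0 < s ∧ closedBall x s ⊆ Ioo a b ∧
      prim E (x + s) - prim E (x - s) = q * (2 * s) := by
  have hae := Besicovitch.ae_tendsto_measure_inter_div_of_measurableSet (μ := (volume : Measure ℝ)) hE
  obtain ⟨x1, hx1, hx1'⟩ : ∃ x1 ∈ E ∩ Ioo a b, Tendsto
      (fun r => volume (E ∩ closedBall x1 r) / volume (closedBall x1 r)) (𝓝[>] 0)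
      (𝓝 (E.indicator 1 x1)) := by
    by_contra hcon
    push Not at hcon
    have : volume (E ∩ Ioo a b) ≤ 0 := by
      refine (measure_mono (fun x hx => ?_)).trans (le_of_eq hae)
      exact hcon x hx
    exact absurd this (not_le.mpr h1)
  obtain ⟨x2, hx2, hx2'⟩ : ∃ x2 ∈ Ioo a b \ E, Tendsto
      (fun r => volume (E ∩ closedBall x2 r) / volume (closedBall x2 r)) (𝓝[>] 0)
      (𝓝 (E.indicator 1 x2)) := by
    by_contra hcon
    push Not at hcon
    have : volume (Ioo a b \ E) ≤ 0 := by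
      refine (measure_mono (fun x hx => ?_)).trans (le_of_eq hae)
      exact hcon x hx
    exact absurd this (not_le.mpr h2)
  rw [indicator_of_mem hx1.1] at hx1'
  rw [indicator_of_notMem hx2.2] at hx2'
  simp only [Pi.one_apply] at hx1'
  have k1 : ∀ᶠ r : ℝ in 𝓝[>] 0, closedBall x1 r ⊆ Ioo a b := by
    have := (isOpen_Ioo (a := a) (b := b)).mem_nhds hx1.2
    obtain ⟨ε, hε, hb⟩ := Metric.nhds_basis_closedBall.mem_iff.mp this
    filter_upwards [Ioo_mem_nhdsGT hε] with r hr
    exact (closedBall_subset_closedBall hr.2.le).trans hb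
  have k2 : ∀ᶠ r : ℝ in 𝓝[>] 0, closedBall x2 r ⊆ Ioo a b := by
    have := (isOpen_Ioo (a := a) (b := b)).mem_nhds hx2.1
    obtain ⟨ε, hε, hb⟩ := Metric.nhds_basis_closedBall.mem_iff.mp this
    filter_upwards [Ioo_mem_nhdsGT hε] with r hr
    exact (closedBall_subset_closedBall hr.2.le).trans hb
  have k3 : ∀ᶠ r : ℝ in 𝓝[>] 0, ENNReal.ofReal q <
      volume (E ∩ closedBall x1 r) / volume (closedBall x1 r) :=
    hx1'.eventually (lt_mem_nhds (by rw [ENNReal.ofReal_lt_one]; exact q1))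
  have k4 : ∀ᶠ r : ℝ in 𝓝[>] 0,
      volume (E ∩ closedBall x2 r) / volume (closedBall x2 r) < ENNReal.ofReal q :=
    hx2'.eventually (gt_mem_nhds (by rw [ENNReal.ofReal_pos]; exact q0))
  obtain ⟨s, ⟨⟨⟨⟨m1, m2⟩, m3⟩, m4⟩, hs⟩⟩ :=
    ((((k1.and k2).and k3).and k4).and self_mem_nhdsWithin).exists
  have hs0 : (0 : ℝ) < s := hs
  have hvol : ∀ x : ℝ, (volume (closedBall x s)) = ENNReal.ofReal (2 * s) := fun x =>
    Real.volume_closedBall x s
  have hne0 : ENNReal.ofReal (2 * s) ≠ 0 := by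
    rw [Ne, ENNReal.ofReal_eq_zero]; push Not; positivity
  have n1 : q * (2 * s) < prim E (x1 + s) - prim E (x1 - s) := by
    rw [prim_ball hE hs0.le]
    rw [hvol, ENNReal.lt_div_iff_mul_lt (Or.inl hne0) (Or.inl ENNReal.ofReal_ne_top),
      ← ENNReal.ofReal_mul q0.le] at m3
    have h6 : volume (E ∩ closedBall x1 s) ≠ ⊤ :=
      ((measure_mono inter_subset_right).trans_lt measure_closedBall_lt_top).ne
    rwa [ENNReal.ofReal_lt_iff_lt_toReal (by positivity) h6] at m3
  have n2 : prim E (x2 + s) - prim E (x2 - s) < q * (2 * s) := by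
    rw [prim_ball hE hs0.le]
    rw [hvol, ENNReal.div_lt_iff (Or.inl hne0) (Or.inl ENNReal.ofReal_ne_top),
      ← ENNReal.ofReal_mul q0.le] at m4
    exact ENNReal.toReal_lt_of_lt_ofReal m4
  have hc : Continuous fun x' => prim E (x' + s) - prim E (x' - s) :=
    ((continuous_prim hE).comp (continuous_id.add continuous_const)).sub
      ((continuous_prim hE).comp (continuous_id.sub continuous_const))
  have h7 : q * (2 * s) ∈
      uIcc (prim E (x2 + s) - prim E (x2 - s)) (prim E (x1 + s) - prim E (x1 - s)) := by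
    rw [mem_uIcc]; left; exact ⟨n2.le, n1.le⟩
  obtain ⟨x', hx', hx''⟩ := intermediate_value_uIcc (a := x2) (b := x1) (hc.continuousOn) h7
  refine ⟨x', s, hs0, ?_, hx''⟩
  intro t ht
  rw [Real.closedBall_eq_Icc] at ht m1 m2
  have p1 := m1 (show x1 - s ∈ _ from ⟨le_rfl, by linarith⟩)
  have p2 := m1 (show x1 + s ∈ _ from ⟨by linarith, le_rfl⟩)
  have p3 := m2 (show x2 - s ∈ _ from ⟨le_rfl, by linarith⟩)
  have p4 := m2 (show x2 + s ∈ _ from ⟨by linarith, le_rfl⟩)
  rw [mem_uIcc] at hx'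
  rcases hx' with h | h
  · exact ⟨by linarith [p3.1, ht.1, h.1], by linarith [p2.2, ht.2, h.2]⟩
  · exact ⟨by linarith [p1.1, ht.1, h.1], by linarith [p4.2, ht.2, h.2]⟩

/-- **nested windows of density exactly `q`** -/
theorem windows {E : Set ℝ} (hE : MeasurableSet E) {q : ℝ} (q0 : 0 < q) (q1 : q < 1)
    {a b : ℝ} (h1 : 0 < volume (E ∩ Ioo a b)) (h2 : 0 < volume (Ioo a b \ E)) :
    ∃ (X : ℕ → ℝ) (s y : ℝ), 0 < s ∧ closedBall (X 0) s ⊆ Ioo a b ∧
      (∀ n, closedBall (X (n + 1)) (s / 2 ^ (n + 1)) ⊆ closedBall (X n) (s / 2 ^ n)) ∧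
      (∀ n, y ∈ closedBall (X n) (s / 2 ^ n)) ∧
      (∀ n, volume (E ∩ closedBall (X n) (s / 2 ^ n)) = ENNReal.ofReal (q * (2 * (s / 2 ^ n)))) ∧
      ∀ n, volume (closedBall (X n) (s / 2 ^ n) \ E) =
        ENNReal.ofReal ((1 - q) * (2 * (s / 2 ^ n))) := by
  obtain ⟨x0, s, hs, hsub, h0⟩ := exists_window hE q0 q1 h1 h2
  have hstep : ∀ n : ℕ, ∀ x : {x : ℝ // prim E (x + s / 2 ^ n) - prim E (x - s / 2 ^ n) =
      q * (2 * (s / 2 ^ n))},
      ∃ x' : {x : ℝ // prim E (x + s / 2 ^ (n + 1)) - prim E (x - s / 2 ^ (n + 1)) =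
        q * (2 * (s / 2 ^ (n + 1)))}, |x'.1 - x.1| ≤ s / 2 ^ (n + 1) := by
    intro n x
    obtain ⟨x', h3, h4⟩ := halve hE (show 0 < s / 2 ^ n by positivity) x.2
    have e : s / 2 ^ n / 2 = s / 2 ^ (n + 1) := by rw [pow_succ]; field_simp
    rw [e] at h3 h4
    exact ⟨⟨x', h4⟩, h3⟩
  choose nx hnx using hstep
  let X : (n : ℕ) → {x : ℝ // prim E (x + s / 2 ^ n) - prim E (x - s / 2 ^ n) =
      q * (2 * (s / 2 ^ n))} :=
    fun n => Nat.rec ⟨x0, by simpa using h0⟩ (fun n x => nx n x) n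
  have hX0 : (X 0).1 = x0 := rfl
  have hXs : ∀ n, |(X (n + 1)).1 - (X n).1| ≤ s / 2 ^ (n + 1) := fun n => hnx n (X n)
  have hd : ∀ m, dist (X m).1 (X (m + 1)).1 ≤ s / 2 * (1 / 2) ^ m := by
    intro m
    rw [dist_comm, Real.dist_eq]
    refine (hXs m).trans (le_of_eq ?_)
    rw [pow_succ, one_div, inv_pow]
    field_simp
  have hcau : CauchySeq fun n => (X n).1 :=
    cauchySeq_of_le_geometric (1 / 2) (s / 2) (by norm_num) hd
  obtain ⟨y, hy⟩ := cauchySeq_tendsto_of_complete hcau
  have hyX : ∀ n, y ∈ closedBall (X n).1 (s / 2 ^ n) := by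
    intro n
    have := dist_le_of_le_geometric_of_tendsto (1 / 2) (s / 2) (by norm_num) hd hy n
    rw [mem_closedBall, dist_comm]
    refine this.trans (le_of_eq ?_)
    rw [one_div, inv_pow]
    have h2n : (2 : ℝ) ^ n ≠ 0 := by positivity
    field_simp
    norm_num
  refine ⟨fun n => (X n).1, s, y, hs, hsub, fun n => ?_, hyX, fun n => ?_, fun n => ?_⟩
  · refine closedBall_subset_closedBall' ?_
    rw [Real.dist_eq]
    have e : s / 2 ^ n = s / 2 ^ (n + 1) + s / 2 ^ (n + 1) := by rw [pow_succ]; field_simp; norm_num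
    linarith [hXs n]
  · have hsn : 0 < s / 2 ^ n := by positivity
    have h5 := prim_ball hE (x := (X n).1) hsn.le
    rw [(X n).2] at h5
    rw [h5, ENNReal.ofReal_toReal]
    exact ((measure_mono inter_subset_right).trans_lt measure_closedBall_lt_top).ne
  · have hsn : 0 < s / 2 ^ n := by positivity
    have h5 := prim_ball_compl hE (x := (X n).1) hsn.le
    rw [(X n).2] at h5
    have h6 : (1 - q) * (2 * (s / 2 ^ n)) = (volume (closedBall (X n).1 (s / 2 ^ n) \ E)).toReal := by
      rw [h5]; ring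
    rw [h6, ENNReal.ofReal_toReal]
    exact ((measure_mono sdiff_subset).trans_lt measure_closedBall_lt_top).ne

/-- **points of middle density** -/
theorem mid_density {E : Set ℝ} (hE : MeasurableSet E) {a b : ℝ}
    (h1 : 0 < volume (E ∩ Ioo a b)) (h2 : 0 < volume (Ioo a b \ E)) :
    ∃ y ∈ Ioo a b, ∃ r₀ > 0, closedBall y r₀ ⊆ Ioo a b ∧ ∀ r, 0 < r → r ≤ r₀ →
      ENNReal.ofReal (r / 4) ≤ volume (E ∩ closedBall y r) ∧
      ENNReal.ofReal (r / 4) ≤ volume (closedBall y r \ E) := by
  obtain ⟨X, s, y, hs, hsub, hnest, hyX, hv1, hv2⟩ :=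
    windows hE (q := 1 / 2) (by norm_num) (by norm_num) h1 h2
  have hyab : y ∈ Ioo a b := hsub (by simpa using hyX 0)
  obtain ⟨ε, hε, hball⟩ := Metric.nhds_basis_closedBall.mem_iff.mp (isOpen_Ioo.mem_nhds hyab)
  refine ⟨y, hyab, min ε s, lt_min hε hs,
    (closedBall_subset_closedBall (min_le_left _ _)).trans hball, fun r hr hr' => ?_⟩
  have hrs : r ≤ s := hr'.trans (min_le_right _ _)
  -- choice of the window
  obtain ⟨n, hn1, hn2⟩ : ∃ n : ℕ, 2 * (s / 2 ^ n) ≤ r ∧ r / 4 ≤ s / 2 ^ n := by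
    have hex : ∃ n : ℕ, 2 * (s / 2 ^ n) ≤ r := by
      have : Tendsto (fun n : ℕ => 2 * (s / 2 ^ n)) atTop (𝓝 (2 * 0)) := by
        refine Tendsto.const_mul 2 ?_
        have h5 := (tendsto_pow_atTop_nhds_zero_of_lt_one (r := (1 / 2 : ℝ)) (by norm_num)
          (by norm_num)).const_mul s
        rw [mul_zero] at h5
        refine h5.congr fun n => ?_
        rw [one_div, inv_pow]; rfl
      rw [mul_zero] at this
      exact (this.eventually (Iic_mem_nhds hr)).exists
    classical
    obtain ⟨m, hm⟩ : ∃ m, m = Nat.find hex := ⟨_, rfl⟩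
    refine ⟨m, hm ▸ Nat.find_spec hex, ?_⟩
    rcases Nat.eq_zero_or_pos m with h | h
    · rw [h]; simp; linarith
    · have h5 := Nat.find_min hex (m := m - 1) (by omega)
      push Not at h5
      obtain ⟨k, rfl⟩ : ∃ k, m = k + 1 := ⟨m - 1, by omega⟩
      rw [Nat.add_sub_cancel] at h5
      have h7 : s / 2 ^ (k + 1) = (s / 2 ^ k) / 2 := by rw [pow_succ]; field_simp
      rw [h7]
      linarith
  have hsn : 0 < s / 2 ^ n := by positivity
  have hsubn : closedBall (X n) (s / 2 ^ n) ⊆ closedBall y r := by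
    refine closedBall_subset_closedBall' ?_
    have h8 := hyX n
    rw [mem_closedBall, dist_comm] at h8
    linarith
  constructor
  · calc ENNReal.ofReal (r / 4) ≤ ENNReal.ofReal (1 / 2 * (2 * (s / 2 ^ n))) :=
          ENNReal.ofReal_le_ofReal (by linarith)
      _ = _ := (hv1 n).symm
      _ ≤ _ := measure_mono (inter_subset_inter_right _ hsubn)
  · calc ENNReal.ofReal (r / 4) ≤ ENNReal.ofReal ((1 - 1 / 2) * (2 * (s / 2 ^ n))) :=
          ENNReal.ofReal_le_ofReal (by linarith)
      _ = _ := (hv2 n).symm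
      _ ≤ _ := measure_mono (sdiff_subset_sdiff_left hsubn)

end Vale.Agent.P097.H230
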