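import Vale.Agent.P097.H877.Bd.Hart
import Vale.Agent.P097.H230.Mid

/-!
(A5.2-MID): a holomorphic function with values in the strip `|Im| < H` below the line `Im t = h`,
whose vertical boundary values have imaginary part `H` or `-H` almost everywhere, both on sets of
positive measure, stays away from the two sides of the strip on all cones at some point of the line.
-/

open Complex Metric Filter Topology Set MeasureTheory

namespace Vale.Agent.P097.H230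

open Vale.Agent.P097.H877.Bd

/-- lower bound of the Poisson integral of a set of lower density `m` at one scale -/
theorem cau_ge_dens {K : Set ℝ} (hKm : MeasurableSet K) (hK : volume K ≠ ⊤) {x₀ m k : ℝ}
    (hk : 0 ≤ k) {z : ℂ} (hz : 0 < z.im) (hzk : |z.re - x₀| ≤ k * z.im)
    (hKs : K ⊆ closedBall x₀ z.im) (hvol : ENNReal.ofReal (m * z.im) ≤ volume K) :
    m / ((1 + k) ^ 2 + 1) ≤ (cau K z).im := by
  rw [cau_im hK hz]
  have hpk : ∀ t ∈ K, 1 / (z.im * ((1 + k) ^ 2 + 1)) ≤ pk z t := by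
    intro t ht
    have h1 := hKs ht
    rw [mem_closedBall, Real.dist_eq] at h1
    have h2 : |t - z.re| ≤ (1 + k) * z.im := by
      have h3 := abs_sub_le t x₀ z.re
      rw [abs_sub_comm x₀ z.re] at h3
      linarith
    have h3 : (t - z.re) ^ 2 ≤ ((1 + k) * z.im) ^ 2 := by
      rw [← sq_abs (t - z.re)]
      exact pow_le_pow_left₀ (abs_nonneg _) h2 2
    rw [pk, div_le_div_iff₀ (by positivity) (by positivity)]
    nlinarith
  have hfin : IsFiniteMeasure (volume.restrict K) := ⟨by simpa using hK.lt_top⟩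
  have h1 : ∫ t in K, (1 / (z.im * ((1 + k) ^ 2 + 1))) ≤ ∫ t in K, pk z t :=
    setIntegral_mono_on (integrable_const _) (integrable_pk hz).integrableOn hKm hpk
  refine le_trans ?_ h1
  rw [setIntegral_const, smul_eq_mul]
  have h2 : m * z.im ≤ (volume K).toReal := by
    rwa [← ENNReal.ofReal_le_iff_le_toReal hK]
  calc m / ((1 + k) ^ 2 + 1) = (m * z.im) * (1 / (z.im * ((1 + k) ^ 2 + 1))) := by
        field_simp
    _ ≤ (volume K).toReal * (1 / (z.im * ((1 + k) ^ 2 + 1))) := by gcongr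

/-- one scale, compact set of boundary points -/
theorem one_scale {x₀ ρ H : ℝ} (hH : 0 < H) {f : ℂ → ℂ}
    (hf : DifferentiableOn ℂ f {z | |z.re - x₀| < ρ ∧ 0 < z.im ∧ z.im < ρ})
    (hb : ∀ z : ℂ, |z.re - x₀| < ρ → 0 < z.im → z.im < ρ → -H ≤ (f z).im)
    {K : Set ℝ} (hK : IsCompact K) {η₀ : ℝ} (hη₀ : 0 < η₀)
    (hKb : ∀ x ∈ K, ∀ η : ℝ, 0 < η → η < η₀ → 0 ≤ (f (x + η * I)).im)
    {s₁ s : ℝ} (hs₁ : 0 ≤ s₁) (hs : 0 < s) (hss : 2 * s₁ ≤ s) (hsρ : s < ρ)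
    (hKs : K ⊆ closedBall x₀ s₁) {z : ℂ} (hz : 0 < z.im) (hzs : ‖z - x₀‖ < s) :
    -(f z).im ≤ H - H * ((cau K z).im / Real.pi - 8 * s₁ / s / Real.pi) := by
  have hpi := Real.pi_pos
  have hopen : IsOpen {z : ℂ | |z.re - x₀| < ρ ∧ 0 < z.im ∧ z.im < ρ} := by
    have h1 : IsOpen {z : ℂ | |z.re - x₀| < ρ} := isOpen_lt (by fun_prop) (by fun_prop)
    have h2 : IsOpen {z : ℂ | 0 < z.im} := isOpen_lt (by fun_prop) (by fun_prop)
    have h3 : IsOpen {z : ℂ | z.im < ρ} := isOpen_lt (by fun_prop) (by fun_prop)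
    exact h1.inter (h2.inter h3)
  -- the shifted function
  have key : ∀ η : ℝ, 0 < η → η < η₀ → η < ρ - s →
      -(f (z + η * I)).im ≤ H - H * ((cau K z).im / Real.pi - 8 * s₁ / s / Real.pi) := by
    intro η h1 h2 h3
    have hmem : ∀ w : ℂ, ‖w - x₀‖ ≤ s → 0 ≤ w.im →
        (w + η * I) ∈ {z : ℂ | |z.re - x₀| < ρ ∧ 0 < z.im ∧ z.im < ρ} := by
      intro w hw1 hw2
      have e1 : |w.re - x₀| ≤ s := by
        have := Complex.abs_re_le_norm (w - x₀)
        simp only [Complex.sub_re, Complex.ofReal_re] at this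
        linarith
      have e2 : w.im ≤ s := by
        have := Complex.abs_im_le_norm (w - x₀)
        simp only [Complex.sub_im, Complex.ofReal_im, sub_zero] at this
        linarith [le_abs_self w.im]
      refine ⟨?_, ?_, ?_⟩
      · simp; linarith
      · simp; linarith
      · simp; linarith
    set g : ℂ → ℂ := fun w => Complex.exp (I * f (w + η * I)) with hg
    have hgn : ∀ w, ‖g w‖ = Real.exp (-(f (w + η * I)).im) := by
      intro w
      rw [hg]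
      simp only [Complex.norm_exp]
      simp
    have h4 := half_barrier (u₀ := x₀) (s := s) (C := Real.exp H) (L := H)
      (β := 8 * s₁ / s / Real.pi) (Real.exp_pos _).le hH.le (by positivity) hK (g := g)
      (by
        intro w hw1 hw2
        have h5 : DifferentiableAt ℂ f (w + η * I) :=
          hf.differentiableAt (hopen.mem_nhds (hmem w hw1 hw2))
        have h6 : DifferentiableAt ℂ (fun w : ℂ => f (w + η * I)) w :=
          DifferentiableAt.comp w h5 (differentiableAt_id.add_const _)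
        exact (h6.const_mul I).cexp)
      (by
        intro w hw1 hw2
        rw [hgn]
        apply Real.exp_le_exp.mpr
        obtain ⟨e1, e2, e3⟩ := hmem w hw1 hw2
        linarith [hb _ e1 e2 e3])
      (by
        intro x hx
        rw [hgn, ← Real.exp_add]
        apply Real.exp_le_exp.mpr
        have := hKb x hx η h1 h2
        linarith)
      (by
        intro w hw1 hw2
        refine (cau_le_arc hK hs₁ hss hs hKs hw2 hw1).trans (le_of_eq ?_)
        field_simp)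
      z hzs hz
    rw [hgn, ← Real.exp_add] at h4
    have h5 := Real.exp_le_exp.mp h4
    linarith
  -- the limit
  have hzmem : z ∈ {z : ℂ | |z.re - x₀| < ρ ∧ 0 < z.im ∧ z.im < ρ} := by
    have e1 : |z.re - x₀| ≤ ‖z - x₀‖ := by
      have := Complex.abs_re_le_norm (z - x₀)
      simpa using this
    have e2 : z.im ≤ ‖z - x₀‖ := by
      have := Complex.abs_im_le_norm (z - x₀)
      simp only [Complex.sub_im, Complex.ofReal_im, sub_zero] at this
      linarith [le_abs_self z.im]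
    exact ⟨by linarith, hz, by linarith⟩
  have hcont : ContinuousAt (fun η : ℝ => -(f (z + η * I)).im) 0 := by
    have h1 : ContinuousAt f (z + ((0 : ℝ) : ℂ) * I) := by
      have : z + ((0 : ℝ) : ℂ) * I = z := by simp
      rw [this]
      exact (hf.differentiableAt (hopen.mem_nhds hzmem)).continuousAt
    have h2 : ContinuousAt (fun η : ℝ => z + (η : ℂ) * I) 0 := by fun_prop
    have h3 : ContinuousAt (fun η : ℝ => f (z + (η : ℂ) * I)) 0 :=
      ContinuousAt.comp (f := fun η : ℝ => z + (η : ℂ) * I) h1 h2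
    exact (Complex.continuous_im.continuousAt.comp h3).neg
  have hlim : Tendsto (fun η : ℝ => -(f (z + η * I)).im) (𝓝[>] 0) (𝓝 (-(f z).im)) := by
    have := hcont.tendsto.mono_left (nhdsWithin_le_nhds (s := Ioi (0 : ℝ)))
    simpa using this
  refine le_of_tendsto hlim ?_
  have hpos : 0 < min η₀ (ρ - s) := lt_min hη₀ (by linarith)
  filter_upwards [Ioo_mem_nhdsGT hpos] with η hη
  exact key η hη.1 (hη.2.trans_le (min_le_left _ _)) (hη.2.trans_le (min_le_right _ _))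

theorem isClosed_nonneg {x₀ ρ s e : ℝ} (hsρ : s < ρ) (he : e ≤ ρ) {f : ℂ → ℂ}
    (hf : DifferentiableOn ℂ f {z | |z.re - x₀| < ρ ∧ 0 < z.im ∧ z.im < ρ}) :
    IsClosed {x : ℝ | x ∈ closedBall x₀ s ∧ ∀ η : ℝ, 0 < η → η < e → 0 ≤ (f (x + η * I)).im} := by
  have hmem : ∀ x ∈ closedBall x₀ s, ∀ η : ℝ, 0 < η → η < ρ →
      ((x : ℂ) + η * I) ∈ {z : ℂ | |z.re - x₀| < ρ ∧ 0 < z.im ∧ z.im < ρ} := by
    intro x hx η h1 h2
    rw [mem_closedBall, Real.dist_eq] at hx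
    refine ⟨?_, ?_, ?_⟩
    · simp; linarith
    · simpa using h1
    · simpa using h2
  have e1 : {x : ℝ | x ∈ closedBall x₀ s ∧ ∀ η : ℝ, 0 < η → η < e → 0 ≤ (f (x + η * I)).im} =
      ⋂ η : ℝ, {x : ℝ | x ∈ closedBall x₀ s ∧ (0 < η → η < e → 0 ≤ (f (x + η * I)).im)} := by
    ext x
    rw [mem_iInter]
    constructor
    · rintro ⟨h1, h2⟩ η
      exact ⟨h1, h2 η⟩
    · intro h
      exact ⟨(h 0).1, fun η => (h η).2⟩
  rw [e1]
  refine isClosed_iInter fun η => ?_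
  by_cases hη : 0 < η ∧ η < e
  · have h3 : ContinuousOn (fun x : ℝ => (f (x + η * I)).im) (closedBall x₀ s) := by
      refine Complex.continuous_im.comp_continuousOn ?_
      refine hf.continuousOn.comp (t := {z | |z.re - x₀| < ρ ∧ 0 < z.im ∧ z.im < ρ})
        (by fun_prop : Continuous fun x : ℝ => ((x : ℂ) + η * I)).continuousOn ?_
      intro x hx
      exact hmem x hx η hη.1 (hη.2.trans_le he)
    have h4 := h3.preimage_isClosed_of_isClosed isClosed_closedBall (isClosed_Ici (a := (0 : ℝ)))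
    have e2 : {x : ℝ | x ∈ closedBall x₀ s ∧ (0 < η → η < e → 0 ≤ (f (x + η * I)).im)} =
        closedBall x₀ s ∩ (fun x : ℝ => (f (x + η * I)).im) ⁻¹' Ici 0 := by
      ext x
      exact ⟨fun h => ⟨h.1, h.2 hη.1 hη.2⟩, fun h => ⟨h.1, fun _ _ => h.2⟩⟩
    rw [e2]
    exact h4
  · have e2 : {x : ℝ | x ∈ closedBall x₀ s ∧ (0 < η → η < e → 0 ≤ (f (x + η * I)).im)} =
        closedBall x₀ s := by
      ext x
      exact ⟨fun h => h.1, fun h => ⟨h, fun h1 h2 => absurd ⟨h1, h2⟩ hη⟩⟩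
    rw [e2]
    exact isClosed_closedBall

/-- the heights `ρ / (n + 1)` -/
theorem exists_small {ρ ε : ℝ} (hε : 0 < ε) : ∃ n : ℕ, ρ / (n + 1) < ε := by
  obtain ⟨n, hn⟩ := exists_nat_gt (ρ / ε)
  refine ⟨n, ?_⟩
  rw [div_lt_iff₀ (by positivity)]
  rw [div_lt_iff₀ hε] at hn
  nlinarith

/-- compact sets of boundary points at which the lower bound is uniform -/
theorem exists_cpt {x₀ ρ s m : ℝ} (hs : 0 < s) (hsρ : s < ρ) (hm : 0 < m) {f : ℂ → ℂ}
    (hf : DifferentiableOn ℂ f {z | |z.re - x₀| < ρ ∧ 0 < z.im ∧ z.im < ρ})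
    {A : Set ℝ} (hA : ∀ x ∈ A, |x - x₀| < ρ → ∀ᶠ η : ℝ in 𝓝[>] 0, 0 ≤ (f (x + η * I)).im)
    (hvol : ENNReal.ofReal (2 * m * s) ≤ volume (A ∩ closedBall x₀ s)) :
    ∃ K : Set ℝ, IsCompact K ∧ K ⊆ closedBall x₀ s ∧ ENNReal.ofReal (m * s) ≤ volume K ∧
      ∃ η₀ > 0, ∀ x ∈ K, ∀ η : ℝ, 0 < η → η < η₀ → 0 ≤ (f (x + η * I)).im := by
  have hρ : 0 < ρ := hs.trans hsρ
  set e : ℕ → ℝ := fun n => ρ / (n + 1) with he
  have he0 : ∀ n, 0 < e n := fun n => by simp only [he]; positivity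
  have heρ : ∀ n, e n ≤ ρ := fun n => by
    simp only [he]
    rw [div_le_iff₀ (by positivity)]
    nlinarith [(Nat.cast_nonneg n : (0 : ℝ) ≤ n)]
  have hanti : ∀ n m, n ≤ m → e m ≤ e n := by
    intro n m hnm
    simp only [he]
    have : (n : ℝ) ≤ m := by exact_mod_cast hnm
    gcongr
  set A' : ℕ → Set ℝ := fun n => {x | x ∈ closedBall x₀ s ∧ ∀ η : ℝ, 0 < η → η < e n →
    0 ≤ (f (x + η * I)).im} with hA'
  have hclosed : ∀ n, IsClosed (A' n) := fun n => isClosed_nonneg hsρ (heρ n) hf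
  have hmono : Monotone A' := by
    intro n m hnm x hx
    exact ⟨hx.1, fun η h1 h2 => hx.2 η h1 (h2.trans_le (hanti n m hnm))⟩
  have hsub : A ∩ closedBall x₀ s ⊆ ⋃ n, A' n := by
    rintro x ⟨hxA, hxs⟩
    have hxr : |x - x₀| < ρ := by
      rw [mem_closedBall, Real.dist_eq] at hxs; linarith
    obtain ⟨ε, hε, h1⟩ := mem_nhdsGT_iff_exists_Ioo_subset.mp (hA x hxA hxr)
    obtain ⟨n, hn⟩ : ∃ n : ℕ, e n < ε := exists_small hε
    refine mem_iUnion.mpr ⟨n, hxs, fun η h2 h3 => h1 ⟨h2, h3.trans hn⟩⟩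
  have hlim := tendsto_measure_iUnion_atTop (μ := (volume : Measure ℝ)) hmono
  have hlt : ENNReal.ofReal (m * s) < volume (⋃ n, A' n) := by
    refine lt_of_lt_of_le ?_ (hvol.trans (measure_mono hsub))
    rw [ENNReal.ofReal_lt_ofReal_iff (by positivity)]
    nlinarith [mul_pos hm hs]
  obtain ⟨n, hn⟩ := (hlim.eventually (lt_mem_nhds hlt)).exists
  refine ⟨A' n, (isCompact_closedBall x₀ s).of_isClosed_subset (hclosed n) fun x hx => hx.1,
    fun x hx => hx.1, hn.le, e n, he0 n, fun x hx η h1 h2 => hx.2 η h1 h2⟩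

/-- one sided bound on a cone, with explicit constants -/
theorem cone_lower {x₀ ρ H m k r₀ : ℝ} (hH : 0 < H) (hρ : 0 < ρ) (hm : 0 < m) (hm1 : m ≤ 1)
    (hk : 0 ≤ k) {f : ℂ → ℂ}
    (hf : DifferentiableOn ℂ f {z | |z.re - x₀| < ρ ∧ 0 < z.im ∧ z.im < ρ})
    (hb : ∀ z : ℂ, |z.re - x₀| < ρ → 0 < z.im → z.im < ρ → -H ≤ (f z).im)
    {A : Set ℝ} (hA : ∀ x ∈ A, |x - x₀| < ρ → ∀ᶠ η : ℝ in 𝓝[>] 0, 0 ≤ (f (x + η * I)).im)
    (hvol : ∀ r, 0 < r → r ≤ r₀ → ENNReal.ofReal (2 * m * r) ≤ volume (A ∩ closedBall x₀ r))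
    {z : ℂ} (hz : 0 < z.im) (hzk : |z.re - x₀| ≤ k * z.im) (hzr : z.im ≤ r₀)
    (hzρ : 32 * ((1 + k) ^ 2 + 1) * z.im ≤ m * ρ) :
    -(1 - m / (2 * Real.pi * ((1 + k) ^ 2 + 1))) * H ≤ (f z).im := by
  have hpi := Real.pi_pos
  set Q : ℝ := (1 + k) ^ 2 + 1 with hQ
  have hQ2 : 2 ≤ Q := by rw [hQ]; nlinarith
  have hQk : 1 + k ≤ Q := by rw [hQ]; nlinarith
  have hzρ' : 32 * Q * z.im ≤ ρ := hzρ.trans (by nlinarith)
  have hzl : z.im < ρ := by nlinarith [mul_pos (show 0 < Q by linarith) hz]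
  obtain ⟨K, hKc, hKs, hKv, η₀, hη₀, hKb⟩ :=
    exists_cpt hz hzl hm hf hA (hvol _ hz hzr)
  have h1 := one_scale hH hf hb hKc hη₀ hKb (s₁ := z.im) (s := ρ / 2) hz.le (by linarith)
    (by nlinarith) (by linarith) hKs hz (by
      refine lt_of_le_of_lt (Complex.norm_le_abs_re_add_abs_im _) ?_
      simp only [Complex.sub_re, Complex.ofReal_re, Complex.sub_im, Complex.ofReal_im, sub_zero]
      rw [abs_of_pos hz]
      nlinarith)
  have h2 := cau_ge_dens hKc.measurableSet hKc.measure_lt_top.ne hk hz hzk hKs hKv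
  rw [← hQ] at h2
  have h3 : 8 * z.im / (ρ / 2) ≤ m / Q / 2 := by
    rw [div_div, div_le_div_iff₀ (by positivity) (by positivity)]
    nlinarith
  have h4 : m / (2 * Real.pi * Q) ≤ (cau K z).im / Real.pi - 8 * z.im / (ρ / 2) / Real.pi := by
    rw [← sub_div, le_div_iff₀ hpi]
    have h5 : m / (2 * Real.pi * Q) * Real.pi = m / Q / 2 := by field_simp
    rw [h5]
    linarith
  have h5 := mul_le_mul_of_nonneg_left h4 hH.le
  nlinarith

/-- the reflected function -/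
noncomputable def flip (h : ℝ) (θ : ℂ → ℂ) (z : ℂ) : ℂ :=
  (starRingEnd ℂ) (θ ((starRingEnd ℂ) (z - h * I)))

theorem conj_re' (h : ℝ) (z : ℂ) : ((starRingEnd ℂ) (z - h * I)).re = z.re := by simp

theorem conj_im' (h : ℝ) (z : ℂ) : ((starRingEnd ℂ) (z - h * I)).im = h - z.im := by
  simp; ring

theorem conj_bd (h x η : ℝ) :
    (starRingEnd ℂ) ((x : ℂ) + η * I - h * I) = x + (h - η : ℝ) * I := by
  simp only [map_sub, map_add, map_mul, Complex.conj_ofReal, Complex.conj_I]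
  push_cast
  ring

theorem flip_im (h : ℝ) (θ : ℂ → ℂ) (z : ℂ) :
    (flip h θ z).im = -(θ ((starRingEnd ℂ) (z - h * I))).im := by simp [flip]

theorem flip_bd (h : ℝ) (θ : ℂ → ℂ) (x η : ℝ) :
    (flip h θ (x + η * I)).im = -(θ (x + (h - η : ℝ) * I)).im := by
  rw [flip_im, conj_bd]

theorem conj_mem {x₀ h ρ : ℝ} {z : ℂ} (h1 : |z.re - x₀| < ρ) (h2 : 0 < z.im) (h3 : z.im < ρ) :
    (starRingEnd ℂ) (z - h * I) ∈ {t : ℂ | |t.re - x₀| < ρ ∧ h - ρ < t.im ∧ t.im < h} := by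
  refine ⟨?_, ?_, ?_⟩
  · rw [conj_re']; exact h1
  · rw [conj_im']; linarith
  · rw [conj_im']; linarith

theorem diff_flip {x₀ h ρ : ℝ} {θ : ℂ → ℂ}
    (hθ : DifferentiableOn ℂ θ {t | |t.re - x₀| < ρ ∧ h - ρ < t.im ∧ t.im < h}) :
    DifferentiableOn ℂ (flip h θ) {z | |z.re - x₀| < ρ ∧ 0 < z.im ∧ z.im < ρ} := by
  have hopen : IsOpen {t : ℂ | |t.re - x₀| < ρ ∧ h - ρ < t.im ∧ t.im < h} := by
    have h1 : IsOpen {z : ℂ | |z.re - x₀| < ρ} := isOpen_lt (by fun_prop) (by fun_prop)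
    have h2 : IsOpen {z : ℂ | h - ρ < z.im} := isOpen_lt (by fun_prop) (by fun_prop)
    have h3 : IsOpen {z : ℂ | z.im < h} := isOpen_lt (by fun_prop) (by fun_prop)
    exact h1.inter (h2.inter h3)
  intro z hz
  have h1 : DifferentiableAt ℂ θ ((starRingEnd ℂ) (z - h * I)) :=
    hθ.differentiableAt (hopen.mem_nhds (conj_mem hz.1 hz.2.1 hz.2.2))
  have h2 : DifferentiableAt ℂ ((starRingEnd ℂ) ∘ θ ∘ (starRingEnd ℂ)) (z - h * I) :=
    differentiableAt_conj_conj_iff.mpr h1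
  have h3 : DifferentiableAt ℂ
      (((starRingEnd ℂ) ∘ θ ∘ (starRingEnd ℂ)) ∘ fun z : ℂ => z - h * I) z :=
    DifferentiableAt.comp (g := (starRingEnd ℂ) ∘ θ ∘ (starRingEnd ℂ)) z h2
      ((differentiableAt_id).sub_const _)
  exact h3.differentiableWithinAt

/-- **cones at a point of middle density**, with explicit constants: `θ` is holomorphic below the
line `Im t = h`, `|Im θ| ≤ H`, and both types of boundary points (`0 ≤ Im θ` eventually on the
vertical segment, resp. `Im θ ≤ 0`) have lower density `2 * m` at `x₀`. -/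
theorem cone_mid {x₀ h ρ H m k r₀ : ℝ} (hH : 0 < H) (hρ : 0 < ρ) (hm : 0 < m) (hm1 : m ≤ 1)
    (hk : 0 ≤ k) {θ : ℂ → ℂ}
    (hθ : DifferentiableOn ℂ θ {t | |t.re - x₀| < ρ ∧ h - ρ < t.im ∧ t.im < h})
    (hb : ∀ t : ℂ, |t.re - x₀| < ρ → h - ρ < t.im → t.im < h → |(θ t).im| ≤ H)
    {A B : Set ℝ}
    (hA : ∀ x ∈ A, |x - x₀| < ρ → ∀ᶠ η : ℝ in 𝓝[>] 0, 0 ≤ (θ (x + (h - η : ℝ) * I)).im)
    (hB : ∀ x ∈ B, |x - x₀| < ρ → ∀ᶠ η : ℝ in 𝓝[>] 0, (θ (x + (h - η : ℝ) * I)).im ≤ 0)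
    (hAvol : ∀ r, 0 < r → r ≤ r₀ → ENNReal.ofReal (2 * m * r) ≤ volume (A ∩ closedBall x₀ r))
    (hBvol : ∀ r, 0 < r → r ≤ r₀ → ENNReal.ofReal (2 * m * r) ≤ volume (B ∩ closedBall x₀ r))
    {t : ℂ} (ht : t.im < h) (htk : |t.re - x₀| ≤ k * (h - t.im)) (htr : h - t.im ≤ r₀)
    (htρ : 32 * ((1 + k) ^ 2 + 1) * (h - t.im) ≤ m * ρ) :
    |(θ t).im| ≤ (1 - m / (2 * Real.pi * ((1 + k) ^ 2 + 1))) * H := by
  have hFd := diff_flip hθ
  -- the point
  set z : ℂ := (starRingEnd ℂ) (t - h * I) with hz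
  have hzre : z.re = t.re := conj_re' h t
  have hzim : z.im = h - t.im := conj_im' h t
  have hcz : (starRingEnd ℂ) (z - h * I) = t := by
    apply Complex.ext
    · rw [conj_re', hzre]
    · rw [conj_im', hzim]; ring
  have hz0 : 0 < z.im := by rw [hzim]; linarith
  have e1 := cone_lower hH hρ hm hm1 hk (f := flip h θ) hFd (fun w h1 h2 h3 => by
      obtain ⟨g1, g2, g3⟩ := conj_mem (h := h) h1 h2 h3
      rw [flip_im]
      have := (abs_le.mp (hb _ g1 g2 g3)).2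
      linarith) (A := B) (fun x hx hxr => by
      filter_upwards [hB x hx hxr] with η hη
      rw [flip_bd]
      linarith) hBvol hz0 (by rw [hzre, hzim]; exact htk) (by rw [hzim]; exact htr)
      (by rw [hzim]; exact htρ)
  have e2 := cone_lower hH hρ hm hm1 hk (f := fun w => -flip h θ w) hFd.neg (fun w h1 h2 h3 => by
      obtain ⟨g1, g2, g3⟩ := conj_mem (h := h) h1 h2 h3
      rw [Complex.neg_im, flip_im]
      have := (abs_le.mp (hb _ g1 g2 g3)).1
      linarith) (A := A) (fun x hx hxr => by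
      filter_upwards [hA x hx hxr] with η hη
      rw [Complex.neg_im, flip_bd]
      linarith) hAvol hz0 (by rw [hzre, hzim]; exact htk) (by rw [hzim]; exact htr)
      (by rw [hzim]; exact htρ)
  rw [flip_im, hcz] at e1
  rw [Complex.neg_im, flip_im, hcz] at e2
  rw [abs_le]
  constructor <;> linarith

/-- **(A5.2-MID)** a transition point at all scales -/
theorem mid_cone {y₀ h H r : ℝ} (hH : 0 < H) (hr : 0 < r) {θ : ℂ → ℂ}
    (hθ : DifferentiableOn ℂ θ {t | |t.re - y₀| < r ∧ h - r < t.im ∧ t.im < h})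
    (hb : ∀ t : ℂ, |t.re - y₀| < r → h - r < t.im → t.im < h → |(θ t).im| ≤ H)
    (hbd : ∀ᵐ x : ℝ, |x - y₀| < r →
      Tendsto (fun η : ℝ => (θ (x + (h - η : ℝ) * I)).im) (𝓝[>] 0) (𝓝 H) ∨
      Tendsto (fun η : ℝ => (θ (x + (h - η : ℝ) * I)).im) (𝓝[>] 0) (𝓝 (-H)))
    (hp : volume {x : ℝ | |x - y₀| < r ∧
      Tendsto (fun η : ℝ => (θ (x + (h - η : ℝ) * I)).im) (𝓝[>] 0) (𝓝 H)} ≠ 0)
    (hn : volume {x : ℝ | |x - y₀| < r ∧
      Tendsto (fun η : ℝ => (θ (x + (h - η : ℝ) * I)).im) (𝓝[>] 0) (𝓝 (-H))} ≠ 0) :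
    ∃ y₁, |y₁ - y₀| < r ∧ ∃ r₀ > 0, ∀ k : ℝ, 0 ≤ k → ∀ t : ℂ, t.im < h →
      |t.re - y₁| ≤ k * (h - t.im) → ((1 + k) ^ 2 + 1) * (h - t.im) ≤ r₀ →
      |(θ t).im| ≤ (1 - 1 / (16 * Real.pi * ((1 + k) ^ 2 + 1))) * H := by
  set P : Set ℝ := {x : ℝ | |x - y₀| < r ∧
      Tendsto (fun η : ℝ => (θ (x + (h - η : ℝ) * I)).im) (𝓝[>] 0) (𝓝 H)} with hP
  set N : Set ℝ := {x : ℝ | |x - y₀| < r ∧
      Tendsto (fun η : ℝ => (θ (x + (h - η : ℝ) * I)).im) (𝓝[>] 0) (𝓝 (-H))} with hN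
  have hball : ∀ x : ℝ, x ∈ Ioo (y₀ - r) (y₀ + r) ↔ |x - y₀| < r := by
    intro x
    rw [abs_lt, mem_Ioo]
    constructor
    · rintro ⟨h1, h2⟩; constructor <;> linarith
    · rintro ⟨h1, h2⟩; constructor <;> linarith
  -- the measurable set
  set e : ℕ → ℝ := fun n => r / (n + 1) with he
  have he0 : ∀ n, 0 < e n := fun n => by simp only [he]; positivity
  have her : ∀ n, e n ≤ r := fun n => by
    simp only [he]
    rw [div_le_iff₀ (by positivity)]
    nlinarith [(Nat.cast_nonneg n : (0 : ℝ) ≤ n)]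
  set C : ℕ → Set ℝ := fun n => {x : ℝ | x ∈ closedBall y₀ (r - e n) ∧
    ∀ η : ℝ, 0 < η → η < e n → 0 ≤ (-flip h θ (x + η * I)).im} with hC
  have hCc : ∀ n, IsClosed (C n) := fun n =>
    isClosed_nonneg (f := fun w => -flip h θ w) (by linarith [he0 n]) (her n) (diff_flip hθ).neg
  set E : Set ℝ := ⋃ n, C n with hE
  have hEm : MeasurableSet E := MeasurableSet.iUnion fun n => (hCc n).measurableSet
  have hEev : ∀ x ∈ E, ∀ᶠ η : ℝ in 𝓝[>] 0, 0 ≤ (θ (x + (h - η : ℝ) * I)).im := by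
    intro x hx
    obtain ⟨n, hn⟩ := mem_iUnion.mp hx
    filter_upwards [Ioo_mem_nhdsGT (he0 n)] with η hη
    have := hn.2 η hη.1 hη.2
    rwa [Complex.neg_im, flip_bd, neg_neg] at this
  have hPE : P ⊆ E := by
    rintro x ⟨hx1, hx2⟩
    have h1 : ∀ᶠ η : ℝ in 𝓝[>] 0, 0 ≤ (θ (x + (h - η : ℝ) * I)).im :=
      (hx2.eventually (lt_mem_nhds hH)).mono fun η hη => hη.le
    obtain ⟨ε, hε, h2⟩ := mem_nhdsGT_iff_exists_Ioo_subset.mp h1
    obtain ⟨n, hn⟩ : ∃ n : ℕ, e n < min ε (r - |x - y₀|) :=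
      exists_small (lt_min hε (by linarith))
    refine mem_iUnion.mpr ⟨n, ?_, fun η h3 h4 => ?_⟩
    · rw [mem_closedBall, Real.dist_eq]
      linarith [min_le_right ε (r - |x - y₀|)]
    · rw [Complex.neg_im, flip_bd, neg_neg]
      exact h2 ⟨h3, h4.trans (hn.trans_le (min_le_left _ _))⟩
  have hNE : ∀ x ∈ N, x ∉ E := by
    rintro x ⟨-, hx2⟩ hxE
    have h1 : ∀ᶠ η : ℝ in 𝓝[>] 0, (θ (x + (h - η : ℝ) * I)).im < 0 :=
      hx2.eventually (gt_mem_nhds (by linarith))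
    obtain ⟨η, h2, h3⟩ := (h1.and (hEev x hxE)).exists
    linarith
  -- the point
  have hv1 : 0 < volume (E ∩ Ioo (y₀ - r) (y₀ + r)) := by
    refine lt_of_lt_of_le (pos_iff_ne_zero.mpr hp) (measure_mono fun x hx => ⟨hPE hx, ?_⟩)
    exact (hball x).mpr hx.1
  have hv2 : 0 < volume (Ioo (y₀ - r) (y₀ + r) \ E) := by
    refine lt_of_lt_of_le (pos_iff_ne_zero.mpr hn) (measure_mono fun x hx => ⟨?_, hNE x hx⟩)
    exact (hball x).mpr hx.1
  obtain ⟨y₁, hy₁, r₁, hr₁, hr₁s, hdens⟩ := mid_density hEm hv1 hv2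
  have hy₁' : |y₁ - y₀| < r := (hball y₁).mp hy₁
  refine ⟨y₁, hy₁', ?_⟩
  set ρ : ℝ := r - |y₁ - y₀| with hρ
  have hρ0 : 0 < ρ := by rw [hρ]; linarith
  have hin : ∀ x : ℝ, |x - y₁| < ρ → |x - y₀| < r := by
    intro x hx
    have := abs_sub_le x y₁ y₀
    linarith
  have hρr : ρ ≤ r := by rw [hρ]; linarith [abs_nonneg (y₁ - y₀)]
  have hsubw : {t : ℂ | |t.re - y₁| < ρ ∧ h - ρ < t.im ∧ t.im < h} ⊆
      {t : ℂ | |t.re - y₀| < r ∧ h - r < t.im ∧ t.im < h} :=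
    fun t ht => ⟨hin _ ht.1, by linarith [ht.2.1], ht.2.2⟩
  have hNvol : ∀ s, 0 < s → s ≤ r₁ → ENNReal.ofReal (s / 4) ≤ volume (N ∩ closedBall y₁ s) := by
    intro s hs0 hs1
    refine (hdens s hs0 hs1).2.trans ?_
    refine measure_mono_ae ?_
    filter_upwards [hbd] with x hx hxs
    have hxr : |x - y₀| < r :=
      (hball x).mp (hr₁s (closedBall_subset_closedBall hs1 hxs.1))
    rcases hx hxr with h1 | h1
    · exact absurd (hPE ⟨hxr, h1⟩) hxs.2
    · exact ⟨⟨hxr, h1⟩, hxs.1⟩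
  refine ⟨min r₁ (1 / 8 * ρ / 32), lt_min hr₁ (by positivity), fun k hk t ht htk htr => ?_⟩
  have hQ1 : (1 : ℝ) ≤ (1 + k) ^ 2 + 1 := by nlinarith
  have htr' : h - t.im ≤ ((1 + k) ^ 2 + 1) * (h - t.im) := by
    nlinarith [mul_nonneg (show (0 : ℝ) ≤ (1 + k) ^ 2 + 1 - 1 by linarith)
      (show (0 : ℝ) ≤ h - t.im by linarith)]
  have hmain := cone_mid (x₀ := y₁) (h := h) (ρ := ρ) (H := H) (m := 1 / 8) (k := k) (r₀ := r₁)
    hH hρ0 (by norm_num) (by norm_num) hk (hθ.mono hsubw)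
    (fun t h1 h2 h3 => hb t (hin _ h1) (by linarith) h3) (A := E) (B := N)
    (fun x hx _ => hEev x hx)
    (fun x hx _ => (hx.2.eventually (gt_mem_nhds (show -H < 0 by linarith))).mono
      fun η hη => hη.le)
    (fun s hs0 hs1 => by
      have h1 := (hdens s hs0 hs1).1
      have e1 : 2 * (1 / 8) * s = s / 4 := by ring
      rw [e1]; exact h1)
    (fun s hs0 hs1 => by
      have h1 := hNvol s hs0 hs1
      have e1 : 2 * (1 / 8) * s = s / 4 := by ring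
      rw [e1]; exact h1)
    ht htk (htr'.trans (htr.trans (min_le_left _ _))) (by
      have h1 := htr.trans (min_le_right _ _)
      rw [le_div_iff₀ (by norm_num)] at h1
      linarith)
  refine hmain.trans (le_of_eq ?_)
  congr 2
  have hpi := Real.pi_pos
  field_simp
  norm_num

end Vale.Agent.P097.H230
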